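import Vale.Agent.P088.R2.H509.EP.Rad

/-!
# P088, stage 3, zone P: the profile near the radius of the pass

`p = pr ε r₀ (1/4)`: for `p - 1 < r < 2 p + 1` one has `L - 1 ≤ 3 / (10 p)`, `L ≥ 97/100`,
`-r L' / L ≤ 2 ε`.
-/

open Set Filter
open scoped ContDiff Topology

noncomputable section

namespace Vale.Agent.P088.R2.H222.P

open Vale.Agent.P088.R2.H644
open Vale.Agent.P088.R2.H509.Rad

variable {ε r₀ r a b : ℝ}

/-- The radius of the pass is large. -/
theorem p_big (h : Ok ε r₀) : 4 / ε ≤ pr ε r₀ (1 / 4) := by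
  have h1 := h.one_le (t := 1 / 4) (by norm_num)
  have h2 := h.gr_le (t := 1 / 4) (by norm_num)
  exact h.num.trans (h.big h1 (h.L_le le_rfl h1 h2))

theorem p_400 (h : Ok ε r₀) : 400 ≤ pr ε r₀ (1 / 4) := by
  refine le_trans ?_ (p_big h)
  rw [le_div_iff₀ h.e0]
  linarith [h.e1]

/-- The value of `L` at the pass. -/
theorem L_p (h : Ok ε r₀) :
    (4 * pr ε r₀ (1 / 4) - 1) * (Lr ε r₀ (pr ε r₀ (1 / 4)) - 1) = 1 := by
  have hL := h.Lpos (pr ε r₀ (1 / 4))
  have h1 := h.gr_eq (t := 1 / 4) (by norm_num) le_rfl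
  unfold gr at h1
  field_simp at h1
  linarith

/-- The rate is at most `2 ε` for `r ≥ 3 / ε`. -/
theorem ef_2 (h : Ok ε r₀) (hr : 3 / ε ≤ r) : ef 2 (4 / 5) ε r₀ (1 / 10) r ≤ 2 * ε := by
  have h0 := h.e0
  have r0 : 0 < r := lt_of_lt_of_le (by positivity) hr
  have h1 := h.pp.ef_le r0
  have h2 : ez 2 r ≤ ε := by
    unfold ez
    have q1 := Real.quadratic_le_exp_of_nonneg (x := 2 * r) (by positivity)
    have q2 : Real.exp (-(2 * r)) ≤ 1 := Real.exp_le_one_iff.2 (by linarith)
    have q3 : (2 * r) ^ 2 / 4 ≤ Real.sinh (2 * r) := by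
      rw [Real.sinh_eq]
      nlinarith
    have q4 : 0 < Real.sinh (2 * r) := lt_of_lt_of_le (by positivity) q3
    rw [div_le_iff₀ q4]
    rw [div_le_iff₀ h0] at hr
    have q5 : 2 * r ≤ ε * ((2 * r) ^ 2 / 4) := by nlinarith
    exact q5.trans (mul_le_mul_of_nonneg_left q3 h0.le)
  linarith

/-- `log L + 2 ε log r` grows. -/
theorem log_mono (h : Ok ε r₀) (ha : 3 / ε ≤ a) (hab : a ≤ b) :
    Real.log (Lr ε r₀ a) + 2 * ε * Real.log a ≤ Real.log (Lr ε r₀ b) + 2 * ε * Real.log b := by
  have h0 := h.e0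
  have a0 : 0 < a := lt_of_lt_of_le (by positivity) ha
  have hd : ∀ s, 0 < s → HasDerivAt (fun s => Real.log (Lr ε r₀ s) + 2 * ε * Real.log s)
      ((2 * ε - ef 2 (4 / 5) ε r₀ (1 / 10) s) / s) s := by
    intro s s0
    have k := ((h.pp.hasDerivAt_Lf s0).log (h.Lpos s).ne').add
      ((Real.hasDerivAt_log s0.ne').const_mul (2 * ε))
    refine k.congr_deriv ?_
    have hL : Lf 2 (4 / 5) ε r₀ (1 / 10) s ≠ 0 := (h.Lpos s).ne'
    field_simp
    ring
  have hm : MonotoneOn (fun s => Real.log (Lr ε r₀ s) + 2 * ε * Real.log s) (Icc a b) := by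
    refine monotoneOn_of_deriv_nonneg (convex_Icc _ _) (fun s hs =>
      (hd s (by linarith [hs.1])).continuousAt.continuousWithinAt) ?_ ?_
    · intro s hs
      rw [interior_Icc] at hs
      exact (hd s (by linarith [hs.1])).differentiableAt.differentiableWithinAt
    · intro s hs
      rw [interior_Icc] at hs
      have s0 : 0 < s := by linarith [hs.1]
      rw [(hd s s0).deriv]
      exact div_nonneg (by linarith [ef_2 h (ha.trans hs.1.le)]) s0.le
  exact hm (left_mem_Icc.2 hab) (right_mem_Icc.2 hab) hab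

/-- **The profile near the pass.** -/
theorem prof (h : Ok ε r₀) (h5 : ε ≤ 1 / 200) (h1 : pr ε r₀ (1 / 4) - 1 < r)
    (h2 : r < 2 * pr ε r₀ (1 / 4) + 1) :
    (Lr ε r₀ r - 1) * pr ε r₀ (1 / 4) ≤ 3 / 10 ∧ 97 / 100 ≤ Lr ε r₀ r ∧
      Lr ε r₀ r ≤ 103 / 100 ∧ ef 2 (4 / 5) ε r₀ (1 / 10) r ≤ 2 * ε := by
  have h0 := h.e0
  have hp := p_big h
  have hp4 := p_400 h
  have hLp := L_p h
  set p := pr ε r₀ (1 / 4) with hpd
  have p0 : 0 < p := by linarith
  have e4 : 4 ≤ p * ε := by rwa [div_le_iff₀ h0] at hp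
  have r3 : 3 / ε ≤ p - 1 := by
    rw [div_le_iff₀ h0]
    linarith
  have r3' : 3 / ε ≤ r := r3.trans h1.le
  have r0 : 0 < r := by linarith
  have LP := h.Lpos p
  have Lr0 := h.Lpos r
  have hL1 : Lr ε r₀ p - 1 ≤ 26 / 100 / p := by
    rw [le_div_iff₀ p0]
    nlinarith
  have hL1' : 0 ≤ Lr ε r₀ p - 1 := by
    by_contra hc
    rw [not_le] at hc
    nlinarith
  -- upper bound
  have up : Lr ε r₀ r - 1 ≤ 3 / 10 / p := by
    rcases le_total p r with hc | hc
    · have := h.pp.antitone_Lf (mem_Ioi.2 p0) (mem_Ioi.2 r0) hc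
      have k : Lr ε r₀ r ≤ Lr ε r₀ p := this
      refine (sub_le_sub_right k 1).trans (hL1.trans ?_)
      exact div_le_div_of_nonneg_right (by norm_num) p0.le
    · have k1 := log_mono h r3' hc
      have k2 : Real.log p - Real.log r ≤ 1 / (p - 1) := by
        have e1 : Real.log p - Real.log r = Real.log (p / r) := by
          rw [Real.log_div p0.ne' r0.ne']
        rw [e1]
        have := Real.log_le_sub_one_of_pos (div_pos p0 r0)
        refine this.trans ?_
        have e2 : p / r - 1 = (p - r) / r := by field_simp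
        rw [e2, div_le_div_iff₀ r0 (by linarith)]
        nlinarith
      have k3 : Real.log (Lr ε r₀ p) ≤ 26 / 100 / p :=
        (Real.log_le_sub_one_of_pos LP).trans hL1
      have k4 : 2 * ε * (Real.log p - Real.log r) ≤ 2 / 100 / p := by
        have a1 : 1 / (p - 1) ≤ 101 / 100 / p := by
          rw [div_le_div_iff₀ (by linarith) p0]
          linarith
        have a2 : 2 * ε * (Real.log p - Real.log r) ≤ 2 * ε * (101 / 100 / p) :=
          mul_le_mul_of_nonneg_left (k2.trans a1) (by positivity)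
        refine a2.trans ?_
        rw [mul_div_assoc']
        exact div_le_div_of_nonneg_right (by linarith) p0.le
      have k5 : Real.log (Lr ε r₀ r) ≤ 28 / 100 / p := by
        have e3 : 28 / 100 / p = 26 / 100 / p + 2 / 100 / p := by ring
        rw [e3]
        linarith
      have k6 : Lr ε r₀ r ≤ Real.exp (28 / 100 / p) := by
        rw [← Real.log_le_iff_le_exp Lr0]
        exact k5
      have y0 : 0 ≤ 28 / 100 / p := by positivity
      have y1 : 28 / 100 / p ≤ 7 / 10000 := by
        rw [div_le_iff₀ p0]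
        linarith
      have k7 : Real.exp (28 / 100 / p) ≤ 1 + 28 / 100 / p + (28 / 100 / p) ^ 2 := by
        have := Real.abs_exp_sub_one_sub_id_le (x := 28 / 100 / p) (by
          rw [abs_of_nonneg y0]
          linarith)
        have := (abs_le.1 this).2
        linarith
      have k8 : (28 / 100 / p) ^ 2 ≤ 2 / 100 / p := by
        have : (28 / 100 / p) ^ 2 ≤ 7 / 10000 * (28 / 100 / p) := by nlinarith
        refine this.trans ?_
        rw [mul_div_assoc']
        exact div_le_div_of_nonneg_right (by norm_num) p0.le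
      have e5 : 3 / 10 / p = 28 / 100 / p + 2 / 100 / p := by ring
      rw [e5]
      linarith
  have up' : (Lr ε r₀ r - 1) * p ≤ 3 / 10 := by rwa [le_div_iff₀ p0] at up
  have up2 : Lr ε r₀ r ≤ 103 / 100 := by
    have : 3 / 10 / p ≤ 3 / 100 := by
      rw [div_le_iff₀ p0]
      linarith
    linarith
  -- lower bound
  have lo : 97 / 100 ≤ Lr ε r₀ r := by
    rcases le_total r p with hc | hc
    · have k : Lr ε r₀ p ≤ Lr ε r₀ r := h.pp.antitone_Lf (mem_Ioi.2 r0) (mem_Ioi.2 p0) hc
      linarith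
    · have k1 := log_mono h (a := p) (by linarith) hc
      have k2 : 0 ≤ Real.log (Lr ε r₀ p) := Real.log_nonneg (by linarith)
      have k3 : Real.log r - Real.log p ≤ 101 / 100 := by
        have e1 : Real.log r - Real.log p = Real.log (r / p) := by
          rw [Real.log_div r0.ne' p0.ne']
        rw [e1]
        have := Real.log_le_sub_one_of_pos (div_pos r0 p0)
        refine this.trans ?_
        rw [sub_le_iff_le_add, div_le_iff₀ p0]
        linarith
      have k4 : -(3 / 100) ≤ Real.log (Lr ε r₀ r) := by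
        have := mul_le_mul_of_nonneg_left k3 (by positivity : 0 ≤ 2 * ε)
        nlinarith
      have k5 := Real.exp_le_exp.2 k4
      rw [Real.exp_log Lr0] at k5
      have := Real.add_one_le_exp (-(3 / 100) : ℝ)
      linarith
  exact ⟨up', lo, up2, ef_2 h r3'⟩

end Vale.Agent.P088.R2.H222.P
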